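import Mathlib

/-!
Primitives on half planes, and the inversion of maps close to the identity on a large sector.
-/

namespace Vale.Agent.P298.H857

open Filter Topology Metric Set

/-- Two primitives of the same function on a preconnected open set which agree at a point agree. -/
theorem eq_of_prim {U : Set ℂ} (hU : IsOpen U) (hc : IsPreconnected U) {f g₁ g₂ : ℂ → ℂ}
    (h₁ : ∀ y ∈ U, HasDerivAt g₁ (f y) y) (h₂ : ∀ y ∈ U, HasDerivAt g₂ (f y) y) {p : ℂ}
    (hp : p ∈ U) (hpp : g₁ p = g₂ p) {y : ℂ} (hy : y ∈ U) : g₁ y = g₂ y := by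
  have hd : ∀ z ∈ U, HasDerivAt (fun x => g₁ x - g₂ x) 0 z := by
    intro z hz
    simpa using (h₁ z hz).fun_sub (h₂ z hz)
  have hdiff : DifferentiableOn ℂ (fun x => g₁ x - g₂ x) U :=
    fun z hz => (hd z hz).differentiableAt.differentiableWithinAt
  have hder : U.EqOn (deriv (fun x => g₁ x - g₂ x)) 0 := fun z hz => (hd z hz).deriv
  obtain ⟨a, ha⟩ := hU.exists_is_const_of_deriv_eq_zero hc hdiff hder
  have e1 : g₁ p - g₂ p = a := ha p hp
  have e2 : g₁ y - g₂ y = a := ha y hy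
  have e3 : a = 0 := by rw [← e1, hpp, sub_self]
  rw [e3] at e2
  exact sub_eq_zero.mp e2

/-- The discs exhausting the right half plane. -/
theorem mem_disc_iff {x : ℂ} {R : ℝ} (hR : 0 < R) :
    x ∈ ball (R : ℂ) R ↔ ‖x‖ ^ 2 < 2 * R * x.re := by
  rw [mem_ball, dist_eq_norm]
  have h1 : ‖x - (R : ℂ)‖ ^ 2 = ‖x‖ ^ 2 - 2 * R * x.re + R ^ 2 := by
    rw [← Complex.normSq_eq_norm_sq, ← Complex.normSq_eq_norm_sq, Complex.normSq_apply,
      Complex.normSq_apply]
    simp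
    ring
  constructor
  · intro h
    have h2 : ‖x - (R : ℂ)‖ ^ 2 < R ^ 2 := by
      have := norm_nonneg (x - (R : ℂ))
      nlinarith
    nlinarith
  · intro h
    have h2 : ‖x - (R : ℂ)‖ ^ 2 < R ^ 2 := by nlinarith
    exact lt_of_pow_lt_pow_left₀ 2 hR.le h2

/-- Primitives on the right half plane. -/
theorem exists_prim_right {F : ℂ → ℂ} (hF : DifferentiableOn ℂ F {x | 0 < x.re}) :
    ∃ G : ℂ → ℂ, ∀ x : ℂ, 0 < x.re → HasDerivAt G (F x) x := by
  have hpos : ∀ j : ℕ, (0 : ℝ) < (j : ℝ) + 1 := fun j => by positivity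
  have hsub : ∀ j : ℕ, ball (((j : ℝ) + 1 : ℝ) : ℂ) ((j : ℝ) + 1) ⊆ {x : ℂ | 0 < x.re} := by
    intro j x hx
    rw [mem_disc_iff (hpos j)] at hx
    have h0 := sq_nonneg ‖x‖
    have h1 : 0 < 2 * ((j : ℝ) + 1) * x.re := lt_of_le_of_lt h0 hx
    have h2 := hpos j
    simp only [mem_ofPred_eq]
    by_contra hcon
    push Not at hcon
    nlinarith
  have hone : ∀ j : ℕ, (1 : ℂ) ∈ ball (((j : ℝ) + 1 : ℝ) : ℂ) ((j : ℝ) + 1) := by
    intro j
    rw [mem_disc_iff (hpos j)]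
    simp
    have : (0 : ℝ) ≤ j := Nat.cast_nonneg j
    linarith
  have hex : ∀ j : ℕ, ∃ g : ℂ → ℂ, g 1 = 0 ∧
      ∀ z ∈ ball (((j : ℝ) + 1 : ℝ) : ℂ) ((j : ℝ) + 1), HasDerivAt g (F z) z := by
    intro j
    obtain ⟨g, hg⟩ := (hF.mono (hsub j)).isExactOn_ball
    refine ⟨fun z => g z - g 1, by simp, fun z hz => ?_⟩
    simpa using (hg z hz).sub_const (g 1)
  choose g hg1 hg using hex
  have hmono : ∀ i j : ℕ, i ≤ j → ball (((i : ℝ) + 1 : ℝ) : ℂ) ((i : ℝ) + 1) ⊆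
      ball (((j : ℝ) + 1 : ℝ) : ℂ) ((j : ℝ) + 1) := by
    intro i j hij x hx
    have hx0 := hsub i hx
    rw [mem_disc_iff (hpos i)] at hx
    rw [mem_disc_iff (hpos j)]
    have h1 : (i : ℝ) ≤ j := Nat.cast_le.mpr hij
    simp only [mem_ofPred_eq] at hx0
    nlinarith
  have hagree : ∀ i j : ℕ, ∀ x, x ∈ ball (((i : ℝ) + 1 : ℝ) : ℂ) ((i : ℝ) + 1) →
      x ∈ ball (((j : ℝ) + 1 : ℝ) : ℂ) ((j : ℝ) + 1) → g i x = g j x := by
    have key : ∀ i j : ℕ, i ≤ j → ∀ x, x ∈ ball (((i : ℝ) + 1 : ℝ) : ℂ) ((i : ℝ) + 1) →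
        g i x = g j x := by
      intro i j hij x hx
      exact eq_of_prim isOpen_ball (convex_ball _ _).isPreconnected (hg i)
        (fun y hy => hg j y (hmono i j hij hy)) (hone i) ((hg1 i).trans (hg1 j).symm) hx
    intro i j x hi hj
    rcases le_total i j with h | h
    · exact key i j h x hi
    · exact (key j i h x hj).symm
  have hcov : ∀ x : ℂ, 0 < x.re → ∃ j : ℕ, x ∈ ball (((j : ℝ) + 1 : ℝ) : ℂ) ((j : ℝ) + 1) := by
    intro x hx
    obtain ⟨j, hj⟩ := exists_nat_gt (‖x‖ ^ 2 / (2 * x.re))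
    refine ⟨j, ?_⟩
    rw [mem_disc_iff (hpos j)]
    rw [div_lt_iff₀ (by positivity)] at hj
    nlinarith
  classical
  let N : ℂ → ℕ := fun x => if h : 0 < x.re then Nat.find (hcov x h) else 0
  have hN : ∀ x : ℂ, 0 < x.re → x ∈ ball ((((N x : ℕ) : ℝ) + 1 : ℝ) : ℂ) (((N x : ℕ) : ℝ) + 1) := by
    intro x hx
    have h1 := Nat.find_spec (hcov x hx)
    have h2 : N x = Nat.find (hcov x hx) := by simp [N, hx]
    rw [h2]
    exact h1
  refine ⟨fun x => g (N x) x, fun x hx => ?_⟩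
  obtain ⟨j, hj⟩ := hcov x hx
  have hev : (fun y => g (N y) y) =ᶠ[𝓝 x] g j := by
    filter_upwards [isOpen_ball.mem_nhds hj] with y hy
    exact hagree _ _ y (hN y (hsub j hy)) hy
  exact (hg j x hj).congr_of_eventuallyEq hev

/-- Primitives on a half plane. -/
theorem exists_prim_half {f : ℂ → ℂ} {n : ℂ} (hn : n ≠ 0) {K : ℝ}
    (hf : DifferentiableOn ℂ f {y | K < (n * y).re}) :
    ∃ g : ℂ → ℂ, ∀ y : ℂ, K < (n * y).re → HasDerivAt g (f y) y := by
  have hF : DifferentiableOn ℂ (fun x : ℂ => f ((x + K) / n)) {x | 0 < x.re} := by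
    refine hf.comp (Differentiable.differentiableOn (by fun_prop)) ?_
    intro x hx
    simp only [mem_ofPred_eq] at hx ⊢
    have h1 : n * ((x + K) / n) = x + K := by field_simp
    rw [h1]
    simp
    linarith
  obtain ⟨G, hG⟩ := exists_prim_right hF
  refine ⟨fun y => G (n * y - K) / n, fun y hy => ?_⟩
  have h0 : 0 < (n * y - K).re := by
    simp only [Complex.sub_re, Complex.ofReal_re]
    linarith
  have h1 := hG _ h0
  have h2 : HasDerivAt (fun y : ℂ => n * y - K) n y := by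
    simpa using ((hasDerivAt_id y).const_mul n).sub_const (K : ℂ)
  have h3 := (h1.comp y h2).div_const n
  have h4 : (n * y - (K : ℂ) + K) / n = y := by
    field_simp
    ring
  simp only [Function.comp_def, h4] at h3
  have h5 : f y * n / n = f y := by field_simp
  rw [h5] at h3
  exact h3

end Vale.Agent.P298.H857
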