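import Vale.Agent.P298.H857.Sector
import Vale.Agent.P298.H462.Defs

/-!
Row T1-P: the petals of the holomorphic vector field `ω s ^ c / u s`.
-/

namespace Vale.Agent.P298.H857

open Filter Topology Metric Set

/-- The branches of the root. -/
noncomputable def br (m : ℕ) (a : ℂ) (k : ℕ) (y : ℂ) : ℂ :=
  a * Complex.exp (2 * Real.pi * Complex.I / m) ^ k * Complex.exp (-Complex.log y / m)

theorem br_pow {m : ℕ} (hm : m ≠ 0) (a : ℂ) (k : ℕ) {y : ℂ} (hy : y ≠ 0) :
    br m a k y ^ m = a ^ m * y⁻¹ := by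
  have hm' : (m : ℂ) ≠ 0 := Nat.cast_ne_zero.mpr hm
  have h1 : Complex.exp (2 * Real.pi * Complex.I / m) ^ m = 1 :=
    (Complex.isPrimitiveRoot_exp m hm).pow_eq_one
  have h2 : Complex.exp (-Complex.log y / m) ^ m = y⁻¹ := by
    rw [← Complex.exp_nat_mul]
    have : (m : ℂ) * (-Complex.log y / m) = -Complex.log y := by field_simp
    rw [this, Complex.exp_neg, Complex.exp_log hy]
  rw [br, mul_pow, mul_pow, ← pow_mul, mul_comm k m, pow_mul, h1, one_pow, mul_one, h2]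

theorem br_ne {m : ℕ} {a : ℂ} (ha : a ≠ 0) (k : ℕ) (y : ℂ) : br m a k y ≠ 0 := by
  unfold br
  exact mul_ne_zero (mul_ne_zero ha (pow_ne_zero _ (Complex.exp_ne_zero _))) (Complex.exp_ne_zero _)

theorem hasDerivAt_br (m : ℕ) (a : ℂ) (k : ℕ) {y : ℂ} (hy : y ∈ Complex.slitPlane) :
    HasDerivAt (br m a k) (-(br m a k y / (m * y))) y := by
  have h1 : HasDerivAt Complex.log y⁻¹ y := Complex.hasDerivAt_log hy
  have h2 : HasDerivAt (fun y => Complex.exp (-Complex.log y / m))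
      (Complex.exp (-Complex.log y / m) * (-y⁻¹ / m)) y :=
    ((h1.fun_neg).div_const (m : ℂ)).cexp
  have h3 := h2.const_mul (a * Complex.exp (2 * Real.pi * Complex.I / m) ^ k)
  refine h3.congr_deriv ?_
  unfold br
  rw [div_eq_mul_inv (-y⁻¹), div_eq_mul_inv _ ((m : ℂ) * y), mul_inv]
  ring

theorem sec_sub_slit {K : ℝ} (hK : 0 < K) {y : ℂ} (hy : y ∈ Sec K) : y ∈ Complex.slitPlane := by
  rw [Complex.mem_slitPlane_iff]
  rw [mem_sec] at hy
  by_cases h : y.im = 0
  · left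
    rw [h, abs_zero] at hy
    linarith
  · exact Or.inr h

theorem sec_norm {K : ℝ} {y : ℂ} (hy : y ∈ Sec K) : K < 2 * ‖y‖ := by
  rw [mem_sec] at hy
  have h1 := Complex.abs_re_le_norm y
  have h2 := Complex.abs_im_le_norm y
  have h3 := le_abs_self y.re
  linarith

theorem petals : H462.PetalsStmt := by
  intro c u ε ω hc hu hu0 hε hω
  obtain ⟨m, rfl⟩ : ∃ m, c = m + 1 := ⟨c - 1, by omega⟩
  have hcm : m + 1 - 1 = m := rfl
  rw [hcm]
  rcases Nat.eq_zero_or_pos m with h0 | hmpos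
  · subst h0
    exact ⟨fun k => k.elim0, fun k => k.elim0, fun k => k.elim0, fun k => k.elim0⟩
  have hm : m ≠ 0 := hmpos.ne'
  have hmC : (m : ℂ) ≠ 0 := Nat.cast_ne_zero.mpr hm
  have hω0 : ω ≠ 0 := by
    rw [← norm_ne_zero_iff, hω]
    exact one_ne_zero
  -- a small disc
  obtain ⟨ε', hε', hεε, hball⟩ : ∃ ε' > 0, ε' ≤ ε ∧ ∀ s ∈ ball (0 : ℂ) ε',
      AnalyticAt ℂ u s ∧ ‖u s / u 0 - 1‖ ≤ 1 / 12 := by
    have h1 := hu.eventually_analyticAt
    have h2 : ContinuousAt (fun s => ‖u s / u 0 - 1‖) 0 :=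
      ((hu.continuousAt.div_const _).sub continuousAt_const).norm
    have h3 : ∀ᶠ s in 𝓝 (0 : ℂ), ‖u s / u 0 - 1‖ < 1 / 12 := by
      refine h2.eventually_lt continuousAt_const ?_
      rw [div_self hu0, sub_self, norm_zero]
      norm_num
    obtain ⟨r, hr, hr'⟩ := Metric.eventually_nhds_iff_ball.mp (h1.and h3)
    refine ⟨min r ε, lt_min hr hε, min_le_right _ _, fun s hs => ?_⟩
    have := hr' s (ball_subset_ball (min_le_left _ _) hs)
    exact ⟨this.1, this.2.le⟩
  -- the constant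
  obtain ⟨a, ha⟩ := IsAlgClosed.exists_pow_nat_eq (Complex.I * u 0 / (m * ω)) hmpos
  have ham : a ^ m ≠ 0 := by
    rw [ha]
    exact div_ne_zero (mul_ne_zero Complex.I_ne_zero hu0) (mul_ne_zero hmC hω0)
  have ha0 : a ≠ 0 := by
    rintro rfl
    exact ham (zero_pow hm)
  set K : ℝ := 2 * (‖a‖ ^ m / ε' ^ m) + 1 with hKdef
  have hq : 0 ≤ ‖a‖ ^ m / ε' ^ m := by positivity
  have hK : 0 < K := by linarith
  have hyn : ∀ y ∈ Sec K, y ≠ 0 := fun y hy => Complex.slitPlane_ne_zero (sec_sub_slit hK hy)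
  have hnorm : ∀ (k : ℕ) (y : ℂ), y ≠ 0 → ‖br m a k y‖ ^ m = ‖a‖ ^ m / ‖y‖ := by
    intro k y hy
    rw [← norm_pow, br_pow hm a k hy, norm_mul, norm_pow, norm_inv, div_eq_mul_inv]
  have hbr : ∀ (k : ℕ) (y : ℂ), y ∈ Sec K → br m a k y ∈ ball (0 : ℂ) ε' := by
    intro k y hy
    rw [mem_ball_zero_iff]
    refine lt_of_pow_lt_pow_left₀ m hε'.le ?_
    rw [hnorm k y (hyn y hy), div_lt_iff₀ (norm_pos_iff.mpr (hyn y hy))]
    have h1 := sec_norm hy
    have h2 : ‖a‖ ^ m / ε' ^ m < ‖y‖ := by linarith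
    rw [div_lt_iff₀ (by positivity)] at h2
    linarith
  have hdiff : ∀ k : ℕ, DifferentiableOn ℂ (fun y => u (br m a k y) / u 0 - 1) (Sec K) := by
    intro k y hy
    have h1 : DifferentiableAt ℂ u (br m a k y) := (hball _ (hbr k y hy)).1.differentiableAt
    have h2 : DifferentiableAt ℂ (br m a k) y :=
      (hasDerivAt_br m a k (sec_sub_slit hK hy)).differentiableAt
    exact (((h1.comp y h2).div_const _).sub_const _).differentiableWithinAt
  have hbd : ∀ k : ℕ, ∀ y ∈ Sec K, ‖u (br m a k y) / u 0 - 1‖ ≤ 1 / 12 :=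
    fun k y hy => (hball _ (hbr k y hy)).2
  have hinv := fun k : ℕ => exists_inverse hK (hdiff k) (hbd k)
  choose Y hY using hinv
  have hre : ∀ w : ℂ, 0 < w.im → 3 * K < (-Complex.I * w + ((3 * K : ℝ) : ℂ)).re := by
    intro w hw
    simp
    exact hw
  refine ⟨fun k w => br m a k (Y k (-Complex.I * w + ((3 * K : ℝ) : ℂ))), ?_, ?_, ?_⟩
  · intro k w hw
    obtain ⟨h1, -, h3⟩ := hY k _ (hre w hw)
    set η := -Complex.I * w + ((3 * K : ℝ) : ℂ) with hη
    set y := Y k η with hy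
    have hs0 : br m a k y ≠ 0 := br_ne ha0 k y
    refine ⟨ball_subset_ball hεε (hbr k y h1), hs0, ?_⟩
    have hy0 : y ≠ 0 := hyn y h1
    have hus : u (br m a k y) ≠ 0 := by
      intro h
      have := hbd k y h1
      rw [h] at this
      norm_num at this
    have hl : HasDerivAt (fun w : ℂ => -Complex.I * w + ((3 * K : ℝ) : ℂ)) (-Complex.I) w := by
      simpa using ((hasDerivAt_id w).const_mul (-Complex.I)).add_const ((3 * K : ℝ) : ℂ)
    have h4 := (hasDerivAt_br m a k (sec_sub_slit hK h1)).comp η h3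
    have h5 := h4.comp w hl
    have h6 : br m a k y ^ m * y = Complex.I * u 0 / (m * ω) := by
      rw [br_pow hm a k hy0, ha]
      field_simp
    have h7 : 1 + (u (br m a k y) / u 0 - 1) = u (br m a k y) / u 0 := by ring
    have h8 : (m : ℂ) * ω * (br m a k y ^ m * y) = Complex.I * u 0 := by
      rw [h6]
      field_simp
    have key : -(br m a k y / (m * y)) * (1 + (u (br m a k y) / u 0 - 1))⁻¹ * -Complex.I =
        ω * br m a k y ^ (m + 1) / u (br m a k y) := by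
      rw [h7, inv_div]
      calc -(br m a k y / (m * y)) * (u 0 / u (br m a k y)) * -Complex.I
          = br m a k y * (Complex.I * u 0) / (m * y * u (br m a k y)) := by
            field_simp
        _ = br m a k y * ((m : ℂ) * ω * (br m a k y ^ m * y)) / (m * y * u (br m a k y)) := by
            rw [h8]
        _ = ω * br m a k y ^ (m + 1) / u (br m a k y) := by
            rw [pow_succ]
            field_simp
    exact h5.congr_deriv key
  · intro k η' hη'
    refine ⟨3 * K + 8 / 7 * (K / 4 + ‖a‖ ^ m / η' ^ m) + 1, fun w hw hT => ?_⟩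
    obtain ⟨h1, h2, -⟩ := hY k _ (hre w hw)
    set η := -Complex.I * w + ((3 * K : ℝ) : ℂ) with hη
    set y := Y k η with hy
    have hy0 : y ≠ 0 := hyn y h1
    have h3 : ‖w‖ ≤ ‖η‖ + 3 * K := by
      have e1 : ‖w‖ = ‖-Complex.I * w‖ := by simp
      have e2 : -Complex.I * w = η - ((3 * K : ℝ) : ℂ) := by rw [hη]; ring
      rw [e1, e2]
      refine (norm_sub_le _ _).trans ?_
      rw [Complex.norm_real, Real.norm_of_nonneg (by linarith)]
    have h4 : ‖η‖ ≤ ‖y‖ + ‖y - η‖ := by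
      have : η = y - (y - η) := by ring
      calc ‖η‖ = ‖y - (y - η)‖ := by rw [← this]
        _ ≤ _ := norm_sub_le _ _
    have h5 : ‖a‖ ^ m / η' ^ m < ‖y‖ := by linarith
    refine lt_of_pow_lt_pow_left₀ m hη'.le ?_
    rw [hnorm k y hy0, div_lt_iff₀ (norm_pos_iff.mpr hy0)]
    rw [div_lt_iff₀ (by positivity)] at h5
    linarith
  · intro k l hkl b
    have hb0 := Complex.abs_im_le_norm b
    have hb1 := neg_abs_le b.im
    have hb2 := norm_nonneg b
    have hw1 : 0 < (((1 + ‖b‖ : ℝ) : ℂ) * Complex.I).im := by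
      simp
      linarith
    have hw2 : 0 < (((1 + ‖b‖ : ℝ) : ℂ) * Complex.I + b).im := by
      simp
      linarith
    refine ⟨((1 + ‖b‖ : ℝ) : ℂ) * Complex.I, hw1, hw2, fun heq => hkl ?_⟩
    obtain ⟨h1, -, -⟩ := hY k _ (hre _ hw1)
    obtain ⟨h2, -, -⟩ := hY l _ (hre _ hw2)
    simp only at heq
    set y := Y k (-Complex.I * (((1 + ‖b‖ : ℝ) : ℂ) * Complex.I) + ((3 * K : ℝ) : ℂ)) with hy
    set y' := Y l (-Complex.I * (((1 + ‖b‖ : ℝ) : ℂ) * Complex.I + b) + ((3 * K : ℝ) : ℂ)) with hy'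
    have h3 : a ^ m * y⁻¹ = a ^ m * y'⁻¹ := by
      rw [← br_pow hm a k (hyn _ h1), ← br_pow hm a l (hyn _ h2), heq]
    have h4 : y = y' := inv_injective (mul_left_cancel₀ ham h3)
    rw [← h4] at heq
    unfold br at heq
    have h5 := mul_right_cancel₀ (Complex.exp_ne_zero _) heq
    have h6 := mul_left_cancel₀ ha0 h5
    exact Fin.ext ((Complex.isPrimitiveRoot_exp m hm).pow_inj k.isLt l.isLt h6)

end Vale.Agent.P298.H857
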