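import Vale.Agent.P298.H857.Prim

/-!
The inverse of a map close to the identity on the region `K < re y + |im y|`.
-/

namespace Vale.Agent.P298.H857

open Filter Topology Metric Set

/-- The region. -/
def Sec (K : ℝ) : Set ℂ := {y | K < y.re + |y.im|}

theorem mem_sec {K : ℝ} {y : ℂ} : y ∈ Sec K ↔ K < y.re + |y.im| := Iff.rfl

theorem isOpen_sec (K : ℝ) : IsOpen (Sec K) := by
  unfold Sec
  exact isOpen_lt continuous_const (by fun_prop)

theorem re_one_sub_I_mul (y : ℂ) : ((1 - Complex.I) * y).re = y.re + y.im := by simp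

theorem re_one_add_I_mul (y : ℂ) : ((1 + Complex.I) * y).re = y.re - y.im := by simp

theorem one_sub_I_ne : (1 - Complex.I) ≠ 0 := by
  intro h
  have := congrArg Complex.im h
  simp at this

theorem one_add_I_ne : (1 + Complex.I) ≠ 0 := by
  intro h
  have := congrArg Complex.im h
  simp at this

/-- The upper half plane of the region. -/
def HU (K : ℝ) : Set ℂ := {y | K < ((1 - Complex.I) * y).re}

/-- The lower half plane of the region. -/
def HL (K : ℝ) : Set ℂ := {y | K < ((1 + Complex.I) * y).re}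

theorem mem_HU {K : ℝ} {y : ℂ} : y ∈ HU K ↔ K < y.re + y.im := by
  rw [← re_one_sub_I_mul]; rfl

theorem mem_HL {K : ℝ} {y : ℂ} : y ∈ HL K ↔ K < y.re - y.im := by
  rw [← re_one_add_I_mul]; rfl

theorem HU_sub {K : ℝ} : HU K ⊆ Sec K := by
  intro y hy
  rw [mem_HU] at hy
  rw [mem_sec]
  have := le_abs_self y.im
  linarith

theorem HL_sub {K : ℝ} : HL K ⊆ Sec K := by
  intro y hy
  rw [mem_HL] at hy
  rw [mem_sec]
  have := neg_abs_le y.im
  linarith

theorem isOpen_HU (K : ℝ) : IsOpen (HU K) := by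
  unfold HU
  exact isOpen_lt continuous_const (by fun_prop)

theorem isOpen_HL (K : ℝ) : IsOpen (HL K) := by
  unfold HL
  exact isOpen_lt continuous_const (by fun_prop)

theorem convex_HU (K : ℝ) : Convex ℝ (HU K) := by
  intro x hx y hy a b ha hb hab
  rw [mem_HU] at hx hy ⊢
  simp only [Complex.add_re, Complex.add_im, Complex.smul_re, Complex.smul_im, smul_eq_mul]
  have e : a * x.re + b * y.re + (a * x.im + b * y.im) =
      a * (x.re + x.im) + b * (y.re + y.im) := by ring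
  rw [e]
  rcases eq_or_lt_of_le ha with h | h
  · rw [← h] at hab ⊢
    have hb1 : b = 1 := by linarith
    rw [hb1]; linarith
  · have h1 : a * K < a * (x.re + x.im) := mul_lt_mul_of_pos_left hx h
    have h2 : b * K ≤ b * (y.re + y.im) := mul_le_mul_of_nonneg_left hy.le hb
    have h3 : K = a * K + b * K := by rw [← add_mul, hab, one_mul]
    linarith

theorem convex_HL (K : ℝ) : Convex ℝ (HL K) := by
  intro x hx y hy a b ha hb hab
  rw [mem_HL] at hx hy ⊢
  simp only [Complex.add_re, Complex.add_im, Complex.smul_re, Complex.smul_im, smul_eq_mul]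
  have e : a * x.re + b * y.re - (a * x.im + b * y.im) =
      a * (x.re - x.im) + b * (y.re - y.im) := by ring
  rw [e]
  rcases eq_or_lt_of_le ha with h | h
  · rw [← h] at hab ⊢
    have hb1 : b = 1 := by linarith
    rw [hb1]; linarith
  · have h1 : a * K < a * (x.re - x.im) := mul_lt_mul_of_pos_left hx h
    have h2 : b * K ≤ b * (y.re - y.im) := mul_le_mul_of_nonneg_left hy.le hb
    have h3 : K = a * K + b * K := by rw [← add_mul, hab, one_mul]
    linarith

/-- A primitive on the region. -/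
theorem exists_prim_sec {K : ℝ} (hK : 0 < K) {e : ℂ → ℂ} (he : DifferentiableOn ℂ e (Sec K))
    (hb : ∀ y ∈ Sec K, ‖e y‖ ≤ 1 / 12) :
    ∃ E : ℂ → ℂ, (∀ y ∈ Sec K, HasDerivAt E (e y) y) ∧
      ∀ y ∈ Sec K, ‖E y‖ ≤ 1 / 12 * ‖y - ((2 * K : ℝ) : ℂ)‖ := by
  have hpU : ((2 * K : ℝ) : ℂ) ∈ HU K := by
    rw [mem_HU]; simp; linarith
  have hpL : ((2 * K : ℝ) : ℂ) ∈ HL K := by
    rw [mem_HL]; simp; linarith
  obtain ⟨g₁, hg₁⟩ := exists_prim_half (K := K) one_sub_I_ne (he.mono HU_sub)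
  obtain ⟨g₂, hg₂⟩ := exists_prim_half (K := K) one_add_I_ne (he.mono HL_sub)
  set p : ℂ := ((2 * K : ℝ) : ℂ) with hp
  have h₁ : ∀ y ∈ HU K, HasDerivAt (fun y => g₁ y - g₁ p) (e y) y :=
    fun y hy => (hg₁ y hy).sub_const _
  have h₂ : ∀ y ∈ HL K, HasDerivAt (fun y => g₂ y - g₂ p) (e y) y :=
    fun y hy => (hg₂ y hy).sub_const _
  have hag : ∀ y, y ∈ HU K → y ∈ HL K → g₁ y - g₁ p = g₂ y - g₂ p := by
    intro y hy1 hy2
    have := eq_of_prim (U := HU K ∩ HL K) ((isOpen_HU K).inter (isOpen_HL K))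
      ((convex_HU K).inter (convex_HL K)).isPreconnected (fun z hz => h₁ z hz.1)
      (fun z hz => h₂ z hz.2) (p := p) ⟨hpU, hpL⟩ (by simp) (y := y) ⟨hy1, hy2⟩
    exact this
  have hU : ∀ y ∈ Sec K, 0 ≤ y.im → y ∈ HU K := by
    intro y hy h
    rw [mem_sec, abs_of_nonneg h] at hy
    rwa [mem_HU]
  have hL : ∀ y ∈ Sec K, y.im ≤ 0 → y ∈ HL K := by
    intro y hy h
    rw [mem_sec, abs_of_nonpos h] at hy
    rw [mem_HL]
    linarith
  classical
  set E : ℂ → ℂ := fun y => if 0 ≤ y.im then g₁ y - g₁ p else g₂ y - g₂ p with hE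
  have hE1 : ∀ y ∈ HU K, E y = g₁ y - g₁ p := by
    intro y hy
    by_cases h : 0 ≤ y.im
    · simp [hE, h]
    · have h' : y.im ≤ 0 := (not_le.mp h).le
      have : y ∈ HL K := hL y (HU_sub hy) h'
      simp only [hE, h, if_false]
      exact (hag y hy this).symm
  have hE2 : ∀ y ∈ HL K, E y = g₂ y - g₂ p := by
    intro y hy
    by_cases h : 0 ≤ y.im
    · have : y ∈ HU K := hU y (HL_sub hy) h
      simp only [hE, h, if_true]
      exact hag y this hy
    · simp [hE, h]
  have hd1 : ∀ y ∈ HU K, HasDerivAt E (e y) y := by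
    intro y hy
    refine (h₁ y hy).congr_of_eventuallyEq ?_
    filter_upwards [(isOpen_HU K).mem_nhds hy] with z hz
    exact hE1 z hz
  have hd2 : ∀ y ∈ HL K, HasDerivAt E (e y) y := by
    intro y hy
    refine (h₂ y hy).congr_of_eventuallyEq ?_
    filter_upwards [(isOpen_HL K).mem_nhds hy] with z hz
    exact hE2 z hz
  have hEp : E p = 0 := by rw [hE1 p hpU, sub_self]
  refine ⟨E, fun y hy => ?_, fun y hy => ?_⟩
  · rcases le_total 0 y.im with h | h
    · exact hd1 y (hU y hy h)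
    · exact hd2 y (hL y hy h)
  · rcases le_total 0 y.im with h | h
    · have := (convex_HU K).norm_image_sub_le_of_norm_hasDerivWithin_le (f := E) (f' := e)
        (C := 1 / 12) (fun z hz => (hd1 z hz).hasDerivWithinAt)
        (fun z hz => hb z (HU_sub hz)) hpU (hU y hy h)
      rwa [hEp, sub_zero] at this
    · have := (convex_HL K).norm_image_sub_le_of_norm_hasDerivWithin_le (f := E) (f' := e)
        (C := 1 / 12) (fun z hz => (hd2 z hz).hasDerivWithinAt)
        (fun z hz => hb z (HL_sub hz)) hpL (hL y hy h)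
      rwa [hEp, sub_zero] at this

/-- A disc around a point far away in the right half plane is in the region. -/
theorem closedBall_sub_sec {K : ℝ} {η : ℂ} (h : 3 * K < η.re) (hK : 0 < K) :
    closedBall η ((‖η‖ + 2 * K) / 6) ⊆ Sec K := by
  intro z hz
  rw [mem_closedBall, dist_eq_norm] at hz
  rw [mem_sec]
  have h1 : |(z - η).re| ≤ ‖z - η‖ := Complex.abs_re_le_norm _
  have h2 : |(z - η).im| ≤ ‖z - η‖ := Complex.abs_im_le_norm _
  have h3 : ‖η‖ ≤ |η.re| + |η.im| := Complex.norm_le_abs_re_add_abs_im η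
  have h4 : |η.re| = η.re := abs_of_pos (by linarith)
  have h5 : η.re ≤ ‖η‖ := by
    have := Complex.abs_re_le_norm η
    rwa [h4] at this
  rw [Complex.sub_re] at h1
  rw [Complex.sub_im] at h2
  have h6 : η.re - z.re ≤ ‖z - η‖ := by
    have := neg_abs_le (z.re - η.re)
    linarith
  have h7 : |η.im| - |z.im| ≤ ‖z - η‖ := by
    have := abs_sub_abs_le_abs_sub η.im z.im
    rw [abs_sub_comm] at this
    linarith
  linarith

/-- The inverse of `y ↦ y + E y`. -/
theorem exists_inverse {K : ℝ} (hK : 0 < K) {e : ℂ → ℂ} (he : DifferentiableOn ℂ e (Sec K))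
    (hb : ∀ y ∈ Sec K, ‖e y‖ ≤ 1 / 12) :
    ∃ Y : ℂ → ℂ, ∀ η : ℂ, 3 * K < η.re → Y η ∈ Sec K ∧ ‖Y η - η‖ ≤ (‖η‖ + 2 * K) / 8 ∧
      HasDerivAt Y (1 + e (Y η))⁻¹ η := by
  obtain ⟨E, hE, hEb⟩ := exists_prim_sec hK he hb
  have hlip : ∀ η : ℂ, 3 * K < η.re → ∀ z ∈ closedBall η ((‖η‖ + 2 * K) / 6),
      ∀ z' ∈ closedBall η ((‖η‖ + 2 * K) / 6), ‖E z' - E z‖ ≤ 1 / 12 * ‖z' - z‖ := by
    intro η hη z hz z' hz'
    exact (convex_closedBall η _).norm_image_sub_le_of_norm_hasDerivWithin_le (f := E) (f' := e)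
      (C := 1 / 12) (fun x hx => (hE x (closedBall_sub_sec hη hK hx)).hasDerivWithinAt)
      (fun x hx => hb x (closedBall_sub_sec hη hK hx)) hz hz'
  have hex : ∀ η : ℂ, ∃ y : ℂ, 3 * K < η.re → y ∈ closedBall η ((‖η‖ + 2 * K) / 8) ∧
      y + E y = η := by
    intro η
    by_cases hη : 3 * K < η.re
    · have hsub : closedBall η ((‖η‖ + 2 * K) / 8) ⊆ closedBall η ((‖η‖ + 2 * K) / 6) := by
        refine closedBall_subset_closedBall ?_
        have := norm_nonneg η
        linarith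
      have hmaps : MapsTo (fun y => η - E y) (closedBall η ((‖η‖ + 2 * K) / 8))
          (closedBall η ((‖η‖ + 2 * K) / 8)) := by
        intro y hy
        rw [mem_closedBall, dist_eq_norm] at hy ⊢
        have h1 : η - E y - η = -E y := by ring
        rw [h1, norm_neg]
        have h2 := hEb y (closedBall_sub_sec hη hK (hsub (by
          rw [mem_closedBall, dist_eq_norm]; exact hy)))
        have h3 : ‖y - ((2 * K : ℝ) : ℂ)‖ ≤ ‖y - η‖ + (‖η‖ + 2 * K) := by
          calc ‖y - ((2 * K : ℝ) : ℂ)‖ = ‖(y - η) + (η - ((2 * K : ℝ) : ℂ))‖ := by ring_nf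
            _ ≤ ‖y - η‖ + ‖η - ((2 * K : ℝ) : ℂ)‖ := norm_add_le _ _
            _ ≤ ‖y - η‖ + (‖η‖ + ‖((2 * K : ℝ) : ℂ)‖) := by
              gcongr
              exact norm_sub_le _ _
            _ = ‖y - η‖ + (‖η‖ + 2 * K) := by
              rw [Complex.norm_real, Real.norm_of_nonneg (by linarith)]
        have hn := norm_nonneg η
        linarith
      have hcontr : ContractingWith (1 / 12 : NNReal)
          (hmaps.restrict (fun y => η - E y) _ _) := by
        refine ⟨?_, ?_⟩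
        · rw [← NNReal.coe_lt_coe]
          norm_num
        · refine LipschitzWith.of_dist_le_mul ?_
          intro x y
          rw [Subtype.dist_eq, Subtype.dist_eq, dist_eq_norm, dist_eq_norm]
          simp only [MapsTo.val_restrict_apply]
          have h1 : η - E x.1 - (η - E y.1) = -(E x.1 - E y.1) := by ring
          rw [h1, norm_neg]
          have := hlip η hη y.1 (hsub y.2) x.1 (hsub x.2)
          simpa using this
      have hmem : η ∈ closedBall η ((‖η‖ + 2 * K) / 8) := by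
        refine mem_closedBall_self ?_
        have := norm_nonneg η
        linarith
      obtain ⟨y, hy, hfix, -⟩ := hcontr.exists_fixedPoint' isClosed_closedBall.isComplete hmaps
        hmem (edist_ne_top _ _)
      refine ⟨y, fun _ => ⟨hy, ?_⟩⟩
      have : η - E y = y := hfix
      linear_combination -this
    · exact ⟨0, fun h => absurd h hη⟩
  choose Y hY using hex
  refine ⟨Y, fun η hη => ?_⟩
  obtain ⟨hYb, hYe⟩ := hY η hη
  have hr : closedBall η ((‖η‖ + 2 * K) / 8) ⊆ closedBall η ((‖η‖ + 2 * K) / 6) := by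
    refine closedBall_subset_closedBall ?_
    have := norm_nonneg η
    linarith
  have hYs : Y η ∈ Sec K := closedBall_sub_sec hη hK (hr hYb)
  refine ⟨hYs, by rwa [mem_closedBall, dist_eq_norm] at hYb, ?_⟩
  -- near `η`
  have hpos : 0 < η.re - 3 * K := by linarith
  have hnear : ∀ᶠ ξ in 𝓝 η, 3 * K < ξ.re ∧ ‖ξ - η‖ < (‖η‖ + 2 * K) / 48 := by
    have h1 : ∀ᶠ ξ in 𝓝 η, 3 * K < ξ.re :=
      (isOpen_lt continuous_const Complex.continuous_re).mem_nhds hη
    have h2 : ∀ᶠ ξ in 𝓝 η, ‖ξ - η‖ < (‖η‖ + 2 * K) / 48 := by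
      have : ball η ((‖η‖ + 2 * K) / 48) ∈ 𝓝 η := by
        refine ball_mem_nhds _ ?_
        have := norm_nonneg η
        positivity
      filter_upwards [this] with ξ hξ
      rwa [mem_ball, dist_eq_norm] at hξ
    exact h1.and h2
  have hexp : ∀ᶠ ξ in 𝓝 η, ‖Y ξ - Y η‖ ≤ 12 / 11 * ‖ξ - η‖ := by
    filter_upwards [hnear] with ξ hξ
    obtain ⟨hξ1, hξ2⟩ := hξ
    obtain ⟨hb1, he1⟩ := hY ξ hξ1
    have hin : Y ξ ∈ closedBall η ((‖η‖ + 2 * K) / 6) := by
      rw [mem_closedBall, dist_eq_norm] at hb1 ⊢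
      have h1 : ‖Y ξ - η‖ ≤ ‖Y ξ - ξ‖ + ‖ξ - η‖ := by
        have : Y ξ - η = (Y ξ - ξ) + (ξ - η) := by ring
        rw [this]
        exact norm_add_le _ _
      have h2 : ‖ξ‖ ≤ ‖η‖ + ‖ξ - η‖ := by
        have : ξ = η + (ξ - η) := by ring
        calc ‖ξ‖ = ‖η + (ξ - η)‖ := by rw [← this]
          _ ≤ _ := norm_add_le _ _
      have hn := norm_nonneg η
      linarith
    have h3 := hlip η hη (Y η) (hr hYb) (Y ξ) hin
    have h4 : Y ξ - Y η = (ξ - η) - (E (Y ξ) - E (Y η)) := by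
      linear_combination he1 - hYe
    have h5 : ‖Y ξ - Y η‖ ≤ ‖ξ - η‖ + ‖E (Y ξ) - E (Y η)‖ := by
      calc ‖Y ξ - Y η‖ = ‖(ξ - η) - (E (Y ξ) - E (Y η))‖ := by rw [← h4]
        _ ≤ _ := norm_sub_le _ _
    linarith
  have hcont : ContinuousAt Y η := by
    rw [ContinuousAt, tendsto_iff_norm_sub_tendsto_zero]
    have hlim : Tendsto (fun ξ => 12 / 11 * ‖ξ - η‖) (𝓝 η) (𝓝 0) := by
      have h1 : Tendsto (fun ξ : ℂ => 12 / 11 * ‖ξ - η‖) (𝓝 η) (𝓝 (12 / 11 * ‖η - η‖)) := by
        refine Continuous.tendsto ?_ _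
        fun_prop
      simpa using h1
    exact squeeze_zero' (Eventually.of_forall fun _ => norm_nonneg _) hexp hlim
  have hW : HasDerivAt (fun y => y + E y) (1 + e (Y η)) (Y η) :=
    (hasDerivAt_id (Y η)).add (hE _ hYs)
  have hne : 1 + e (Y η) ≠ 0 := by
    intro h
    have h1 : e (Y η) = -1 := by linear_combination h
    have h2 := hb _ hYs
    rw [h1] at h2
    norm_num at h2
  refine HasDerivAt.of_local_left_inverse hcont hW hne ?_
  filter_upwards [hnear] with ξ hξ
  exact (hY ξ hξ.1).2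

end Vale.Agent.P298.H857
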